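import Vale.Agent.P279.H597.Last

/-!
# Nagata's conjecture on plane curves

For every `r ≥ 10` and very general points `p₁, …, p_r` of the complex projective plane, every
nonzero homogeneous polynomial `F` of degree `d ≥ 1` with multiplicity at least `m i` at `p i`
(for all `i`) satisfies `∑ m i < d √r`.
-/

namespace Vale.Agent.Results.P279.Nagata

open MvPolynomial Vale.Agent.P279

/-- **Nagata's conjecture**, for every `r ≥ 10`, every degree and all multiplicities. -/
theorem result (r : ℕ) (hr : 10 ≤ r) : VeryGenerally r fun p =>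
    ∀ (d : ℕ) (F : MvPolynomial (Fin 3) ℂ), 1 ≤ d → F.IsHomogeneous d → F ≠ 0 →
      ∀ m : Fin r → ℕ, (∀ i, MultAtLeast F (p i) (m i)) →
        ∑ i, (m i : ℝ) < d * √(r : ℝ) :=
  H765.nagata_of_LA (fun _ _ hm hmb => H597.laStmt hm hmb) r hr

end Vale.Agent.Results.P279.Nagata
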